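import Vale.Agent.Lib.P309.Upper

/-!
# P309: the least horizon of bounded-memory learners for noiseless Gaussian regression

Lower bound for `M = O(d^2)`, memory-sample tradeoff, the counting threshold below which
no learner exists at any horizon, and the quantized Kaczmarz upper bound.
-/

open MeasureTheory

namespace Vale.Agent.Results.P309.LeastHorizon

open Vale.Agent.Lib.P309

/-- Four parts.
(1) For every `c₀`, learners with `M ≤ c₀ d²` bits need `T ≥ c' d log(1/ε)` samples, for all small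
`ε` and all large `d`.
(2) The tradeoff `d³ log(1/ε) ≤ 10⁸ (T + d) (M + d²)` for `d ≥ 2^20`, `M ≤ 2^(d/2)`,
`ε ≤ e^(-100)`.
(3) Every succeeding learner has `(d - 1) log₂ (1 / (4 ε)) ≤ M + 3`, at any horizon `T`.
(4) If `M ≥ d log₂ (244 d² / ε)` and `ε ≤ 1/2`, a deterministic learner with `2^M` states and
horizon `T ≤ 4 d log(1/ε) + 13 d` succeeds. -/
theorem result :
    (∀ c₀ : ℝ, 0 < c₀ → ∃ c' : ℝ, 0 < c' ∧ ∃ ε₀ : ℝ, 0 < ε₀ ∧ ∃ d₀ : ℕ,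
      ∀ (d M T K : ℕ) (ε : ℝ), d₀ ≤ d → 0 < ε → ε < ε₀ →
        (M : ℝ) ≤ c₀ * (d : ℝ) ^ 2 → K ≤ 2 ^ M →
        ∀ (Ω : Type) [MeasurableSpace Ω] (ν : Measure Ω) [IsProbabilityMeasure ν]
          (L : Learner d T K Ω),
          L.Succeeds ν ε → c' * (d : ℝ) * Real.log (1 / ε) ≤ (T : ℝ)) ∧
    (∀ (d M T K : ℕ) (ε : ℝ), 2 ^ 20 ≤ d → K ≤ 2 ^ M → (M : ℝ) ≤ 2 ^ (d / 2) →
        0 < ε → ε ≤ Real.exp (-100) →
        ∀ (Ω : Type) [MeasurableSpace Ω] (ν : Measure Ω) [IsProbabilityMeasure ν]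
          (L : Learner d T K Ω),
          L.Succeeds ν ε →
            (d : ℝ) ^ 3 * Real.log (1 / ε) ≤ 10 ^ 8 * ((T : ℝ) + d) * ((M : ℝ) + (d : ℝ) ^ 2)) ∧
    (∀ (d M T K : ℕ) (ε : ℝ), 1 ≤ d → K ≤ 2 ^ M → 0 < ε →
        ∀ (Ω : Type) [MeasurableSpace Ω] (ν : Measure Ω) [IsProbabilityMeasure ν]
          (L : Learner d T K Ω),
          L.Succeeds ν ε → ((d : ℝ) - 1) * Real.logb 2 (1 / (4 * ε)) ≤ (M : ℝ) + 3) ∧
    (∀ (d M : ℕ) (ε : ℝ), 1 ≤ d → 0 < ε → ε ≤ 1 / 2 →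
        (d : ℝ) * Real.logb 2 (244 * (d : ℝ) ^ 2 / ε) ≤ (M : ℝ) →
        ∃ T : ℕ, (T : ℝ) ≤ 4 * (d : ℝ) * Real.log (1 / ε) + 13 * (d : ℝ) ∧
          ∃ L : Learner d T (2 ^ M) Unit, L.Succeeds (Measure.dirac ()) ε) := by
  refine ⟨q1_lower, ?_, ?_, ?_⟩
  · intro d M T K ε hd hK hM hε hε1 Ω _ ν _ L hL
    exact main_tradeoff hd hK hM L ν hε hε1 hL
  · intro d M T K ε hd hK hε Ω _ ν _ L hL
    exact no_learner hd hK L ν hε hL
  · intro d M ε hd hε hε1 hM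
    have hD : (0:ℝ) < (d:ℝ) := by exact_mod_cast hd
    exact exists_kz_learner hd hε hε1 (pow_le_of_logb (by positivity) hM)

end Vale.Agent.Results.P309.LeastHorizon
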