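import Vale.Agent.Lib.P309.Main

/-!
# P309: the memory-sample tradeoff for noiseless Gaussian regression
-/

open MeasureTheory

namespace Vale.Agent.Results.P309.MemorySampleTradeoff

open Vale.Agent.Lib.P309

/-- For `d ≥ 2^20`, `M ≤ 2^⌊d/2⌋`, `ε ≤ e^(-100)`, a learner with at most `2^M` states and horizon
`T` succeeding at accuracy `ε` with probability at least `2/3` has
`d³ log(1/ε) ≤ 10⁸ (T + d) (M + d²)`. -/
theorem result (d M T K : ℕ) (ε : ℝ) (hd : 2 ^ 20 ≤ d) (hε : 0 < ε) (hε1 : ε ≤ Real.exp (-100))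
    (hM : (M : ℝ) ≤ 2 ^ (d / 2)) (hK : K ≤ 2 ^ M) (Ω : Type) [MeasurableSpace Ω] (ν : Measure Ω)
    [IsProbabilityMeasure ν] (L : Learner d T K Ω) (hL : L.Succeeds ν ε) :
    (d : ℝ) ^ 3 * Real.log (1 / ε) ≤ 10 ^ 8 * ((T : ℝ) + d) * ((M : ℝ) + (d : ℝ) ^ 2) :=
  main_tradeoff hd hK hM L ν hε hε1 hL

end Vale.Agent.Results.P309.MemorySampleTradeoff
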